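import Mathlib

set_option autoImplicit false

/-!
Complete symmetric functions (row K13a): `(a+1) h_(a+1) ≤ (p_1 + a) h_a` for weights in `[0,1]`,
by counting pairs `(i, s')` with `s = i ::ₛ s'`, so `a! h_a ≤ (p_1 + a)^a`.
-/

namespace Vale.Agent.P181.KT

theorem hstep13 {ι : Type} [Fintype ι] [DecidableEq ι] (w : ι → ℝ) (a : ℕ)
    (h0 : ∀ i, 0 ≤ w i) (h1 : ∀ i, w i ≤ 1) :
    ((a : ℝ) + 1) * ∑ s : Sym ι (a + 1), ((s : Multiset ι).map w).prod ≤
      (∑ i, w i + a) * ∑ s : Sym ι a, ((s : Multiset ι).map w).prod := by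
  have hcount : ∀ (n : ℕ) (s : Sym ι n), ∑ i, ((s : Multiset ι).count i : ℝ) = n := by
    intro n s
    have : ∑ i, (s : Multiset ι).count i = Multiset.card (s : Multiset ι) :=
      Multiset.sum_count_eq_card (fun a _ => Finset.mem_univ a)
    have h2 : ∑ i, (s : Multiset ι).count i = n := by rw [this, Sym.card_coe]
    exact_mod_cast h2
  have hi : ∀ i : ι, ∑ s : Sym ι a, (((s : Multiset ι).count i : ℝ) + 1) *
      (w i * ((s : Multiset ι).map w).prod) =
      ∑ s : Sym ι (a + 1), ((s : Multiset ι).count i : ℝ) * ((s : Multiset ι).map w).prod := by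
    intro i
    refine Fintype.sum_of_injective (fun s : Sym ι a => i ::ₛ s) ?_ _ _ ?_ ?_
    · intro s t h
      exact (Sym.cons_inj_right i s t).1 h
    · intro s hs
      have : i ∉ (s : Multiset ι) := by
        intro h
        apply hs
        exact ⟨s.erase i h, Sym.cons_erase h⟩
      rw [Multiset.count_eq_zero_of_notMem this]
      simp
    · intro s
      simp only [Sym.coe_cons, Multiset.count_cons_self, Multiset.map_cons, Multiset.prod_cons]
      push_cast
      ring
  have hP : ∀ s : Sym ι a, 0 ≤ ((s : Multiset ι).map w).prod := by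
    intro s
    refine Multiset.prod_nonneg ?_
    intro x hx
    obtain ⟨i, _, rfl⟩ := Multiset.mem_map.1 hx
    exact h0 i
  calc ((a : ℝ) + 1) * ∑ s : Sym ι (a + 1), ((s : Multiset ι).map w).prod
      = ∑ s : Sym ι (a + 1), (∑ i, ((s : Multiset ι).count i : ℝ)) *
          ((s : Multiset ι).map w).prod := by
        rw [Finset.mul_sum]
        refine Finset.sum_congr rfl fun s _ => ?_
        rw [hcount (a + 1) s]
        push_cast
        rfl
    _ = ∑ i, ∑ s : Sym ι (a + 1), ((s : Multiset ι).count i : ℝ) *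
          ((s : Multiset ι).map w).prod := by
        simp only [Finset.sum_mul]
        rw [Finset.sum_comm]
    _ = ∑ i, ∑ s : Sym ι a, (((s : Multiset ι).count i : ℝ) + 1) *
          (w i * ((s : Multiset ι).map w).prod) :=
        Finset.sum_congr rfl fun i _ => (hi i).symm
    _ ≤ ∑ i, ∑ s : Sym ι a, (((s : Multiset ι).count i : ℝ) + w i) *
          ((s : Multiset ι).map w).prod := by
        refine Finset.sum_le_sum fun i _ => Finset.sum_le_sum fun s _ => ?_
        rw [← mul_assoc]
        refine mul_le_mul_of_nonneg_right ?_ (hP s)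
        have hc : (0 : ℝ) ≤ ((s : Multiset ι).count i : ℝ) := Nat.cast_nonneg _
        nlinarith [h1 i, h0 i]
    _ = (∑ i, w i + a) * ∑ s : Sym ι a, ((s : Multiset ι).map w).prod := by
        rw [Finset.sum_comm, Finset.mul_sum]
        refine Finset.sum_congr rfl fun s _ => ?_
        rw [← Finset.sum_mul, Finset.sum_add_distrib, hcount a s, add_comm (a : ℝ)]

/-- K13a (complete symmetric functions). -/
theorem k13a : ∀ {ι : Type} [Fintype ι] [DecidableEq ι] (w : ι → ℝ) (a : ℕ),
    (∀ i, 0 ≤ w i) → (∀ i, w i ≤ 1) →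
    (a.factorial : ℝ) * ∑ s : Sym ι a, ((s : Multiset ι).map w).prod ≤ (∑ i, w i + a) ^ a := by
  intro ι _ _ w a h0 h1
  have hp : 0 ≤ ∑ i, w i := Finset.sum_nonneg fun i _ => h0 i
  induction a with
  | zero =>
    simp only [Nat.factorial_zero, Nat.cast_one, one_mul, pow_zero, Fintype.sum_unique]
    rw [Sym.eq_nil_of_card_zero (default : Sym ι 0), Sym.coe_nil]
    simp
  | succ a ih =>
    have hs := hstep13 w a h0 h1
    have hf : (0 : ℝ) ≤ (a.factorial : ℝ) := Nat.cast_nonneg _
    calc ((a + 1).factorial : ℝ) * ∑ s : Sym ι (a + 1), ((s : Multiset ι).map w).prod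
        = (a.factorial : ℝ) * (((a : ℝ) + 1) *
            ∑ s : Sym ι (a + 1), ((s : Multiset ι).map w).prod) := by
          rw [Nat.factorial_succ]
          push_cast
          ring
      _ ≤ (a.factorial : ℝ) * ((∑ i, w i + a) *
            ∑ s : Sym ι a, ((s : Multiset ι).map w).prod) := mul_le_mul_of_nonneg_left hs hf
      _ = (∑ i, w i + a) * ((a.factorial : ℝ) *
            ∑ s : Sym ι a, ((s : Multiset ι).map w).prod) := by ring
      _ ≤ (∑ i, w i + a) * (∑ i, w i + a) ^ a :=
          mul_le_mul_of_nonneg_left ih (by positivity)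
      _ = (∑ i, w i + a) ^ (a + 1) := by ring
      _ ≤ (∑ i, w i + ((a + 1 : ℕ) : ℝ)) ^ (a + 1) := by
          refine pow_le_pow_left₀ (by positivity) ?_ _
          push_cast
          linarith

end Vale.Agent.P181.KT
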