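import Vale.Agent.P181.R2.H207.KDefs

set_option autoImplicit false

/-!
The tilt is bounded (row K5): if `u` has law proportional to `exp (η · u)` on the monomials of
degree `c` and `η i > η j`, then moving one unit from `j` to `i` shows
`(η i - η j) E u_j ≤ 1`.
-/

namespace Vale.Agent.P181.KT

open Finset

/-- Move one unit from `j` to `i`. -/
def mv5 {m : ℕ} (i j : Fin m) (u : Fin m → ℕ) : Fin m → ℕ :=
  fun k => if k = i then u k + 1 else if k = j then u k - 1 else u k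

theorem mv5_cast {m : ℕ} {i j : Fin m} (hij : i ≠ j) {u : Fin m → ℕ} (hu : 1 ≤ u j) (k : Fin m) :
    (mv5 i j u k : ℝ) = u k + (if k = i then 1 else 0) - (if k = j then 1 else 0) := by
  unfold mv5
  by_cases h1 : k = i
  · subst h1
    simp [hij]
  · by_cases h2 : k = j
    · subst h2
      simp [h1, Nat.cast_sub hu]
    · simp [h1, h2]

theorem mv5_mem {m c : ℕ} {i j : Fin m} (hij : i ≠ j) {u : Fin m → ℕ} (hu : 1 ≤ u j)
    (hm : u ∈ Mn m c) : mv5 i j u ∈ Mn m c := by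
  unfold Mn at hm ⊢
  rw [Finset.mem_piAntidiag] at hm ⊢
  refine ⟨?_, fun _ _ => Finset.mem_univ _⟩
  have h : ((∑ k, mv5 i j u k : ℕ) : ℝ) = ((c : ℕ) : ℝ) := by
    rw [Nat.cast_sum]
    simp only [mv5_cast hij hu]
    rw [Finset.sum_sub_distrib, Finset.sum_add_distrib]
    simp
    rw [← hm.1]
    push_cast
    rfl
  exact_mod_cast h

theorem mv5_exp {m : ℕ} {i j : Fin m} (hij : i ≠ j) (η : Fin m → ℝ) {u : Fin m → ℕ}
    (hu : 1 ≤ u j) : ∑ k, η k * (mv5 i j u k : ℝ) = ∑ k, η k * (u k : ℝ) + (η i - η j) := by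
  simp only [mv5_cast hij hu, mul_sub, mul_add]
  rw [Finset.sum_sub_distrib, Finset.sum_add_distrib]
  simp
  ring

theorem mv5_inj {m : ℕ} {i j : Fin m} (hij : i ≠ j) {u v : Fin m → ℕ} (hu : 1 ≤ u j)
    (hv : 1 ≤ v j) (h : mv5 i j u = mv5 i j v) : u = v := by
  funext k
  have hk : (mv5 i j u k : ℝ) = mv5 i j v k := by rw [h]
  rw [mv5_cast hij hu, mv5_cast hij hv] at hk
  have : (u k : ℝ) = v k := by linarith
  exact_mod_cast this

theorem sum5 {m c : ℕ} {i j : Fin m} (hij : i ≠ j) (η : Fin m → ℝ) :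
    ∑ u ∈ Mn m c, (u j : ℝ) * Real.exp (∑ k, η k * (u k : ℝ)) ≤
      Real.exp (-(η i - η j)) *
        (∑ u ∈ Mn m c, (u j : ℝ) * Real.exp (∑ k, η k * (u k : ℝ)) + ZZ m c η) := by
  set w : (Fin m → ℕ) → ℝ := fun u => Real.exp (∑ k, η k * (u k : ℝ)) with hw
  have h1 : ∑ u ∈ Mn m c, (u j : ℝ) * w u = ∑ u ∈ (Mn m c).filter (fun u => 1 ≤ u j),
      (u j : ℝ) * w u := by
    rw [Finset.sum_filter]
    refine Finset.sum_congr rfl fun u _ => ?_
    by_cases h : 1 ≤ u j
    · rw [if_pos h]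
    · rw [if_neg h]
      have : u j = 0 := by omega
      rw [this]
      simp
  have h2 : ∀ u ∈ (Mn m c).filter (fun u => 1 ≤ u j), (u j : ℝ) * w u =
      Real.exp (-(η i - η j)) * (((mv5 i j u j : ℕ) : ℝ) + 1) * w (mv5 i j u) := by
    intro u hu
    have hu' := (Finset.mem_filter.1 hu).2
    have e1 : ((mv5 i j u j : ℕ) : ℝ) + 1 = u j := by
      rw [mv5_cast hij hu']
      simp [hij.symm]
    have e2 : w (mv5 i j u) = w u * Real.exp (η i - η j) := by
      simp only [hw]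
      rw [mv5_exp hij η hu', Real.exp_add]
    rw [e1, e2]
    have e3 : Real.exp (-(η i - η j)) * Real.exp (η i - η j) = 1 := by
      rw [← Real.exp_add]
      simp
    calc (u j : ℝ) * w u = (Real.exp (-(η i - η j)) * Real.exp (η i - η j)) * ((u j : ℝ) * w u) := by
          rw [e3, one_mul]
      _ = _ := by ring
  have h3 : ∑ u ∈ (Mn m c).filter (fun u => 1 ≤ u j),
      Real.exp (-(η i - η j)) * (((mv5 i j u j : ℕ) : ℝ) + 1) * w (mv5 i j u) =
      ∑ v ∈ ((Mn m c).filter (fun u => 1 ≤ u j)).image (mv5 i j),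
        Real.exp (-(η i - η j)) * ((v j : ℝ) + 1) * w v := by
    rw [Finset.sum_image]
    intro u hu v hv h
    exact mv5_inj hij (Finset.mem_filter.1 hu).2 (Finset.mem_filter.1 hv).2 h
  have h4 : ∑ v ∈ ((Mn m c).filter (fun u => 1 ≤ u j)).image (mv5 i j),
        Real.exp (-(η i - η j)) * ((v j : ℝ) + 1) * w v ≤
      ∑ v ∈ Mn m c, Real.exp (-(η i - η j)) * ((v j : ℝ) + 1) * w v := by
    refine Finset.sum_le_sum_of_subset_of_nonneg ?_ fun v _ _ => ?_
    · intro v hv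
      obtain ⟨u, hu, rfl⟩ := Finset.mem_image.1 hv
      exact mv5_mem hij (Finset.mem_filter.1 hu).2 (Finset.mem_filter.1 hu).1
    · simp only [hw]
      positivity
  have h5 : ∑ v ∈ Mn m c, Real.exp (-(η i - η j)) * ((v j : ℝ) + 1) * w v =
      Real.exp (-(η i - η j)) * (∑ u ∈ Mn m c, (u j : ℝ) * w u + ZZ m c η) := by
    unfold ZZ
    rw [← Finset.sum_add_distrib, Finset.mul_sum]
    refine Finset.sum_congr rfl fun v _ => ?_
    simp only [hw]
    ring
  calc ∑ u ∈ Mn m c, (u j : ℝ) * w u = ∑ u ∈ (Mn m c).filter (fun u => 1 ≤ u j),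
      (u j : ℝ) * w u := h1
    _ = ∑ u ∈ (Mn m c).filter (fun u => 1 ≤ u j),
      Real.exp (-(η i - η j)) * (((mv5 i j u j : ℕ) : ℝ) + 1) * w (mv5 i j u) :=
        Finset.sum_congr rfl h2
    _ = _ := h3
    _ ≤ _ := h4
    _ = _ := h5

theorem ZZ_pos5 {m c : ℕ} (i : Fin m) (η : Fin m → ℝ) : 0 < ZZ m c η := by
  unfold ZZ
  refine Finset.sum_pos (fun u _ => Real.exp_pos _) ⟨fun k => if k = i then c else 0, ?_⟩
  unfold Mn
  rw [Finset.mem_piAntidiag]
  exact ⟨by simp, fun _ _ => Finset.mem_univ _⟩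

/-- The mean of coordinate `j` is at most `1 / (η i - η j)`. -/
theorem mean5 {m c : ℕ} {η x : Fin m → ℝ} (h : Mean m c η x) {i j : Fin m} (hd : 0 < η i - η j) :
    x j * (η i - η j) ≤ 1 := by
  have hij : i ≠ j := by
    rintro rfl
    simp at hd
  have hs := sum5 (c := c) hij η
  rw [h j] at hs
  have hZ : 0 < ZZ m c η := ZZ_pos5 i η
  set Z := ZZ m c η with hZd
  set δ := η i - η j with hδ
  have he : Real.exp (-δ) * Real.exp δ = 1 := by
    rw [← Real.exp_add]
    simp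
  have h1 : x j * Z * Real.exp δ ≤ x j * Z + Z := by
    calc x j * Z * Real.exp δ ≤ Real.exp (-δ) * (x j * Z + Z) * Real.exp δ :=
          mul_le_mul_of_nonneg_right hs (Real.exp_pos _).le
      _ = (Real.exp (-δ) * Real.exp δ) * (x j * Z + Z) := by ring
      _ = x j * Z + Z := by rw [he, one_mul]
  have h2 : x j * (Real.exp δ - 1) ≤ 1 := by
    have : Z * (x j * (Real.exp δ - 1)) ≤ Z * 1 := by linarith
    exact le_of_mul_le_mul_left this hZ
  have hx : 0 ≤ x j := by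
    have : 0 ≤ x j * Z := by
      rw [hZd, ← h j]
      exact Finset.sum_nonneg fun u _ => mul_nonneg (Nat.cast_nonneg _) (Real.exp_pos _).le
    exact nonneg_of_mul_nonneg_left this hZ
  have h3 : δ ≤ Real.exp δ - 1 := by
    have := Real.add_one_le_exp δ
    linarith
  exact (mul_le_mul_of_nonneg_left h3 hx).trans h2

/-- K5 (the tilt is bounded). -/
theorem k5 : ∀ (m : ℕ) {κ : ℝ}, 0 < κ → ∃ T : ℝ, 0 < T ∧ ∀ (c : ℕ) (η x : Fin m → ℝ), 1 ≤ c →
    Mean m c η x → ∑ i, x i = c → (∀ i, κ * c ≤ x i) → ∀ i j, c * (η i - η j) ≤ T := by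
  intro m κ hκ
  refine ⟨1 / κ, by positivity, fun c η x hc hM _ hx i j => ?_⟩
  rcases le_or_gt (η i - η j) 0 with h | h
  · have : (c : ℝ) * (η i - η j) ≤ 0 := mul_nonpos_of_nonneg_of_nonpos (Nat.cast_nonneg _) h
    exact this.trans (by positivity)
  · have h1 := mean5 hM h
    rw [le_div_iff₀ hκ]
    calc (c : ℝ) * (η i - η j) * κ = κ * c * (η i - η j) := by ring
      _ ≤ x j * (η i - η j) := mul_le_mul_of_nonneg_right (hx j) h.le
      _ ≤ 1 := h1

end Vale.Agent.P181.KT
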