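import Vale.Agent.P181.R2.H959.WDefs
import Mathlib.LinearAlgebra.Vandermonde
import Mathlib.LinearAlgebra.Matrix.Block

/-! P181.AllFewRows, row W1: products of minors along a cyclic word. -/

set_option autoImplicit false

open scoped TensorProduct

namespace Vale.Agent.P181.FR

open Vale.Agent.P181 Vale.Agent.P181.H280 Vale.Agent.P181.H54 MvPolynomial

namespace Cyc

/-- Functions of `B` points, homogeneous polynomials of degree `d j` in the point `j`. -/
noncomputable def MQ (B m : ℕ) (d : Fin B → ℕ) : Submodule ℂ ((Fin B → Fin m → ℂ) → ℂ) :=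
  Submodule.span ℂ {G | ∃ q : Fin B → MvPolynomial (Fin m) ℂ, (∀ j, (q j).IsHomogeneous (d j)) ∧
    G = fun p => ∏ j, eval (p j) (q j)}

theorem MQ_const (B m e : ℕ) : MQ B m (fun _ => e) = MP B m e := rfl

theorem MQ_mul {B m : ℕ} {d d' : Fin B → ℕ} {G H : (Fin B → Fin m → ℂ) → ℂ} (hG : G ∈ MQ B m d)
    (hH : H ∈ MQ B m d') : G * H ∈ MQ B m (d + d') := by
  have h1 : G * H ∈ MQ B m d * MQ B m d' := Submodule.mul_mem_mul hG hH
  refine (?_ : MQ B m d * MQ B m d' ≤ MQ B m (d + d')) h1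
  unfold MQ
  rw [Submodule.span_mul_span]
  apply Submodule.span_mono
  rintro _ ⟨G1, ⟨q, hq, rfl⟩, H1, ⟨q', hq', rfl⟩, rfl⟩
  refine ⟨fun j => q j * q' j, fun j => (hq j).mul (hq' j), ?_⟩
  funext p
  simp only [Pi.mul_apply, map_mul, Finset.prod_mul_distrib]

theorem MQ_one {B m : ℕ} : (1 : (Fin B → Fin m → ℂ) → ℂ) ∈ MQ B m 0 := by
  refine Submodule.subset_span ⟨fun _ => 1, fun _ => isHomogeneous_one _ _, ?_⟩
  funext p
  rw [Pi.one_apply]
  symm
  refine Finset.prod_eq_one fun j _ => ?_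
  rw [map_one]

/-- The minor of the first `i` coordinates of the points `f 0, f 1, ..`. -/
noncomputable def mn {B i m : ℕ} (him : i ≤ m) (f : Fin i → Fin B) :
    (Fin B → Fin m → ℂ) → ℂ := fun p =>
  Matrix.det (Matrix.of fun j k : Fin i => p (f j) (Fin.castLE him k))

/-- The degrees of a minor. -/
def dg1 {B i : ℕ} (f : Fin i → Fin B) : Fin B → ℕ := fun b => ∑ t : Fin i, if f t = b then 1 else 0

theorem mon_MQ {B i m : ℕ} (f : Fin i → Fin B) (c : Fin i → Fin m) :
    (fun p : Fin B → Fin m → ℂ => ∏ t, p (f t) (c t)) ∈ MQ B m (dg1 f) := by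
  apply Submodule.subset_span
  refine ⟨fun b => ∏ t ∈ Finset.univ.filter (fun t => f t = b), X (c t), fun b => ?_, ?_⟩
  · have h := IsHomogeneous.prod (Finset.univ.filter (fun t => f t = b))
      (fun t => (X (c t) : MvPolynomial (Fin m) ℂ)) (fun _ => 1)
      (fun t _ => isHomogeneous_X ℂ (c t))
    have e : ∑ t ∈ Finset.univ.filter (fun t => f t = b), 1 = dg1 f b := by
      unfold dg1
      rw [Finset.sum_filter]
    rw [e] at h
    exact h
  · funext p
    simp only [map_prod, eval_X]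
    rw [← Finset.prod_fiberwise Finset.univ f]
    refine Finset.prod_congr rfl fun b _ => Finset.prod_congr rfl fun t ht => ?_
    rw [(Finset.mem_filter.1 ht).2]

theorem mn_MQ {B i m : ℕ} (him : i ≤ m) (f : Fin i → Fin B) : mn him f ∈ MQ B m (dg1 f) := by
  have h : mn him f = ∑ σ : Equiv.Perm (Fin i), ((Equiv.Perm.sign σ : ℤ) : ℂ) •
        (fun p : Fin B → Fin m → ℂ => ∏ j, p (f j) (Fin.castLE him (σ j))) := by
    funext p
    unfold mn
    rw [← Matrix.det_transpose, Matrix.det_apply', Finset.sum_apply]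
    refine Finset.sum_congr rfl (fun σ _ => ?_)
    simp only [Matrix.transpose_apply, Matrix.of_apply, Pi.smul_apply, smul_eq_mul]
  rw [h]
  exact Submodule.sum_mem _ (fun σ _ => Submodule.smul_mem _ _ (mon_MQ f _))

theorem sum_castLE {M : Type*} [AddCommMonoid M] {i m : ℕ} (him : i ≤ m) (f : Fin m → M)
    (hf : ∀ l : Fin m, i ≤ (l : ℕ) → f l = 0) : ∑ l, f l = ∑ l : Fin i, f (Fin.castLE him l) := by
  have e : ∑ l : Fin i, f (Fin.castLE him l) =
      ∑ x ∈ Finset.univ.map (Fin.castLEEmb him), f x :=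
    (Finset.sum_map Finset.univ (Fin.castLEEmb him) f).symm
  rw [e]
  symm
  refine Finset.sum_subset (Finset.subset_univ _) fun l _ hl => ?_
  refine hf l ?_
  by_contra hc
  refine hl ?_
  rw [Finset.mem_map]
  exact ⟨⟨l, not_le.1 hc⟩, Finset.mem_univ _, Fin.ext rfl⟩

theorem prod_castLE {M : Type*} [CommMonoid M] {i m : ℕ} (him : i ≤ m) (f : Fin m → M)
    (hf : ∀ l : Fin m, i ≤ (l : ℕ) → f l = 1) : ∏ l, f l = ∏ l : Fin i, f (Fin.castLE him l) := by
  have e : ∏ l : Fin i, f (Fin.castLE him l) =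
      ∏ x ∈ Finset.univ.map (Fin.castLEEmb him), f x :=
    (Finset.prod_map Finset.univ (Fin.castLEEmb him) f).symm
  rw [e]
  symm
  refine Finset.prod_subset (Finset.subset_univ _) fun l _ hl => ?_
  refine hf l ?_
  by_contra hc
  refine hl ?_
  rw [Finset.mem_map]
  exact ⟨⟨l, not_le.1 hc⟩, Finset.mem_univ _, Fin.ext rfl⟩

theorem wt_om {i m : ℕ} (him : i ≤ m) (g : Matrix (Fin m) (Fin m) ℂ) :
    ∏ k, g k k ^ om m i k = ∏ k : Fin i, g (Fin.castLE him k) (Fin.castLE him k) := by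
  rw [prod_castLE him]
  · refine Finset.prod_congr rfl fun k _ => ?_
    have : om m i (Fin.castLE him k) = 1 := by
      unfold om
      rw [if_pos]
      exact k.2
    rw [this, pow_one]
  · intro l hl
    have : om m i l = 0 := by
      unfold om
      rw [if_neg (not_lt.2 hl)]
    rw [this, pow_zero]

theorem vm_cast {i m : ℕ} (him : i ≤ m) {g : Matrix (Fin m) (Fin m) ℂ} (hg : IsBorel g)
    (v : Fin m → ℂ) (k : Fin i) : Matrix.vecMul v g (Fin.castLE him k) =
      ∑ l : Fin i, v (Fin.castLE him l) * g (Fin.castLE him l) (Fin.castLE him k) := by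
  rw [Matrix.vecMul, dotProduct, sum_castLE him]
  intro l hl
  rw [hg.1 l (Fin.castLE him k), mul_zero]
  rw [Fin.lt_def]
  exact lt_of_lt_of_le k.2 hl

theorem mn_wt {B i m : ℕ} (him : i ≤ m) (f : Fin i → Fin B) : HWF B m (om m i) (mn him f) := by
  intro g hg p
  have e : (Matrix.of fun j k : Fin i => Matrix.vecMul (p (f j)) g (Fin.castLE him k)) =
      (Matrix.of fun j k : Fin i => p (f j) (Fin.castLE him k)) *
        g.submatrix (Fin.castLE him) (Fin.castLE him) := by
    ext j k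
    rw [Matrix.of_apply, vm_cast him hg, Matrix.mul_apply]
    rfl
  have h2 : (g.submatrix (Fin.castLE him) (Fin.castLE him)).det =
      ∏ k : Fin i, g (Fin.castLE him k) (Fin.castLE him k) := by
    rw [Matrix.det_of_isUpperTriangular]
    · rfl
    · intro j k hjk
      exact hg.1 _ _ hjk
  unfold mn
  rw [e, Matrix.det_mul, h2, ← wt_om him, mul_comm]

theorem HWF_mul {B m : ℕ} {u v : Fin m → ℕ} {G H : (Fin B → Fin m → ℂ) → ℂ}
    (hG : HWF B m u G) (hH : HWF B m v H) : HWF B m (u + v) (G * H) := by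
  intro g hg p
  have e : ∏ k, g k k ^ ((u + v) k) = (∏ k, g k k ^ u k) * ∏ k, g k k ^ v k := by
    rw [← Finset.prod_mul_distrib]
    refine Finset.prod_congr rfl fun k _ => ?_
    rw [Pi.add_apply, pow_add]
  rw [Pi.mul_apply, Pi.mul_apply, hG g hg p, hH g hg p, e]
  ring

theorem HWF_one {B m : ℕ} : HWF B m 0 (1 : (Fin B → Fin m → ℂ) → ℂ) := by
  intro g _ p
  simp

/-- Points on the moment curve. -/
noncomputable def mom (B m : ℕ) : Fin B → Fin m → ℂ := fun j k => (j : ℂ) ^ (k : ℕ)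

theorem mn_mom {B i m : ℕ} (him : i ≤ m) (f : Fin i → Fin B) (hf : Function.Injective f) :
    mn him f (mom B m) ≠ 0 := by
  have h : mn him f (mom B m) = (Matrix.vandermonde (fun t : Fin i => ((f t : ℕ) : ℂ))).det := rfl
  rw [h, Matrix.det_vandermonde_ne_zero_iff]
  intro a b hab
  exact hf (Fin.ext (Nat.cast_injective hab))

/-- Degrees of a cyclic word of length `L` starting at `o`. -/
def dgw (B : ℕ) (o L : ℕ) : Fin B → ℕ := fun b => ∑ n ∈ Finset.range L,
  if (o + n) % B = (b : ℕ) then 1 else 0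

theorem dgw_add (B o d L : ℕ) : dgw B o (d + L) = dgw B o d + dgw B (o + d) L := by
  funext b
  unfold dgw
  rw [Pi.add_apply, Finset.sum_range_add]
  simp only [add_assoc]

theorem dgw_full (B e : ℕ) (b : Fin B) : dgw B 0 (e * B) b = e := by
  induction e with
  | zero => simp [dgw]
  | succ e ih =>
    rw [Nat.succ_mul, dgw_add, Pi.add_apply, ih]
    have h : dgw B (0 + e * B) B b = 1 := by
      unfold dgw
      rw [Finset.sum_eq_single (b : ℕ)]
      · rw [if_pos]
        rw [zero_add, Nat.add_comm, Nat.add_mul_mod_self_right, Nat.mod_eq_of_lt b.2]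
      · intro n hn hne
        rw [if_neg]
        rw [zero_add, Nat.add_comm, Nat.add_mul_mod_self_right,
          Nat.mod_eq_of_lt (Finset.mem_range.1 hn)]
        exact hne
      · intro h
        exact absurd (Finset.mem_range.2 b.2) h
    rw [h]

/-- The points of the letter of size `d` at position `o`. -/
def fw {B : ℕ} (hB : 0 < B) (o d : ℕ) : Fin d → Fin B := fun t => ⟨(o + t) % B, Nat.mod_lt _ hB⟩

theorem fw_dg {B : ℕ} (hB : 0 < B) (o d : ℕ) : dg1 (fw hB o d) = dgw B o d := by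
  funext b
  unfold dg1 dgw
  rw [Finset.sum_range]
  refine Finset.sum_congr rfl fun t _ => ?_
  have : fw hB o d t = b ↔ (o + (t : ℕ)) % B = (b : ℕ) := by
    rw [Fin.ext_iff]
    rfl
  simp only [this]

theorem fw_inj {B : ℕ} (hB : 0 < B) (o : ℕ) {d : ℕ} (hd : d ≤ B) :
    Function.Injective (fw hB o d) := by
  intro s t h
  have h1 : (o + (s : ℕ)) % B = (o + (t : ℕ)) % B := congrArg Fin.val h
  have h2 : (s : ℕ) ≡ t [MOD B] := Nat.ModEq.add_left_cancel' o h1
  exact Fin.ext (Nat.ModEq.eq_of_lt_of_lt h2 (lt_of_lt_of_le s.2 hd) (lt_of_lt_of_le t.2 hd))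

theorem word {B m : ℕ} (hmB : m ≤ B) (hB : 0 < B) (l : List ℕ) (hl : ∀ d ∈ l, d ≤ m) (o : ℕ) :
    ∃ G ∈ MQ B m (dgw B o l.sum), HWF B m (l.map (om m)).sum G ∧ G (mom B m) ≠ 0 := by
  induction l generalizing o with
  | nil =>
    refine ⟨1, ?_, HWF_one, one_ne_zero⟩
    have : dgw B o ([] : List ℕ).sum = 0 := by
      funext b
      simp [dgw]
    rw [this]
    exact MQ_one
  | cons d l ih =>
    obtain ⟨G, hG, hw, h0⟩ := ih (fun x hx => hl x (List.mem_cons_of_mem _ hx)) (o + d)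
    have hd : d ≤ m := hl d List.mem_cons_self
    refine ⟨mn hd (fw hB o d) * G, ?_, ?_, ?_⟩
    · rw [List.sum_cons, dgw_add, ← fw_dg hB]
      exact MQ_mul (mn_MQ hd _) hG
    · rw [List.map_cons, List.sum_cons]
      exact HWF_mul (mn_wt hd _) hw
    · rw [Pi.mul_apply]
      exact mul_ne_zero (mn_mom hd _ (fw_inj hB o (hd.trans hmB))) h0

theorem exists_word (m : ℕ) (g : ℕ → ℕ) (r : ℕ) : ∃ l : List ℕ, (∀ d ∈ l, d ≤ r) ∧
    l.sum = ∑ j ∈ Finset.Icc 1 r, j * g j ∧
    (l.map (om m)).sum = ∑ j ∈ Finset.Icc 1 r, g j • om m j := by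
  induction r with
  | zero => exact ⟨[], by simp, by simp, by simp⟩
  | succ r ih =>
    obtain ⟨l, h1, h2, h3⟩ := ih
    refine ⟨l ++ List.replicate (g (r + 1)) (r + 1), ?_, ?_, ?_⟩
    · intro d hd
      rcases List.mem_append.1 hd with h | h
      · exact (h1 d h).trans (Nat.le_succ r)
      · exact (List.eq_of_mem_replicate h).le
    · rw [List.sum_append, h2, List.sum_replicate, Finset.sum_Icc_succ_top (by omega), smul_eq_mul,
        mul_comm (g (r + 1))]
    · rw [List.map_append, List.sum_append, h3, List.map_replicate, List.sum_replicate,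
        Finset.sum_Icc_succ_top (by omega)]

theorem gw_eq (m : ℕ) (g : ℕ → ℕ) : ∑ j ∈ Finset.Icc 1 m, g j • om m j = gw m g := by
  funext k
  unfold gw
  rw [Finset.sum_apply]
  have h : ∀ j ∈ Finset.Icc 1 m, (g j • om m j) k = if (k : ℕ) < j then g j else 0 := by
    intro j _
    rw [Pi.smul_apply, smul_eq_mul]
    unfold om
    split_ifs <;> simp
  rw [Finset.sum_congr rfl h, ← Finset.sum_filter]
  refine Finset.sum_congr ?_ fun _ _ => rfl
  ext j
  simp only [Finset.mem_filter, Finset.mem_Icc, Finset.mem_Ioc]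
  omega

end Cyc

open Cyc

/-- W1: the product of minors along a cyclic word. -/
theorem cyc {B m e : ℕ} (hmB : m ≤ B) (hB : 0 < B) (g : ℕ → ℕ)
    (hs : ∑ j ∈ Finset.Icc 1 m, j * g j = e * B) :
    ∃ G ∈ MP B m e, HWF B m (gw m g) G ∧ G ≠ 0 := by
  obtain ⟨l, h1, h2, h3⟩ := exists_word m g m
  obtain ⟨G, hG, hw, h0⟩ := word hmB hB l h1 0
  refine ⟨G, ?_, ?_, ?_⟩
  · rw [h2, hs] at hG
    have : dgw B 0 (e * B) = fun _ => e := funext (dgw_full B e)
    rw [this, MQ_const] at hG
    exact hG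
  · rw [h3, gw_eq] at hw
    exact hw
  · intro h
    rw [h] at h0
    exact h0 rfl

end Vale.Agent.P181.FR
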