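import Vale.Agent.P181.R2.H379.Cyc
import Mathlib.Combinatorics.Colex
import Mathlib.Algebra.Polynomial.BigOperators

/-! P181.AllFewRows, row W2: products of all minors, with one swap. -/

set_option autoImplicit false

open scoped TensorProduct

namespace Vale.Agent.P181.FR

open Vale.Agent.P181 Vale.Agent.P181.H280 Vale.Agent.P181.H54 MvPolynomial Cyc

namespace Hyp

theorem two_inj {B : ℕ} {S T : Finset (Fin B)}
    (h : ∑ s ∈ S, (2 : ℂ) ^ (s : ℕ) = ∑ t ∈ T, (2 : ℂ) ^ (t : ℕ)) : S = T := by
  have h1 : ∑ s ∈ S.map Fin.valEmbedding, 2 ^ s = ∑ t ∈ T.map Fin.valEmbedding, 2 ^ t := by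
    rw [Finset.sum_map, Finset.sum_map]
    have : ((∑ s ∈ S, 2 ^ (s : ℕ) : ℕ) : ℂ) = ((∑ t ∈ T, 2 ^ (t : ℕ) : ℕ) : ℂ) := by
      push_cast
      exact h
    exact_mod_cast this
  exact Finset.map_injective _ (Finset.geomSum_injective le_rfl h1)

theorem det_gap {i : ℕ} (hi : 1 ≤ i) (v : Fin i → ℂ) :
    (Matrix.of fun j k : Fin i => if (k : ℕ) + 1 < i then v j ^ (k : ℕ) else v j ^ i).det =
      (Matrix.vandermonde v).det * ∑ j, v j := by
  obtain ⟨n, rfl⟩ : ∃ n, i = n + 1 := ⟨i - 1, by omega⟩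
  set R : Polynomial ℂ := ∏ j, (Polynomial.X - Polynomial.C (v j)) with hR
  have hRm : R.Monic := Polynomial.monic_prod_of_monic _ _ fun j _ => Polynomial.monic_X_sub_C _
  have hRd : R.natDegree = n + 1 := by
    rw [hR, Polynomial.natDegree_prod_of_monic _ _ fun j _ => Polynomial.monic_X_sub_C _]
    simp
  have hd : (Polynomial.X ^ (n + 1) - R).natDegree ≤ n := by
    have h1 : (Polynomial.X ^ (n + 1) - R).degree < (Polynomial.X ^ (n + 1) : Polynomial ℂ).degree := by
      refine Polynomial.degree_sub_lt_left ?_ (pow_ne_zero _ Polynomial.X_ne_zero) ?_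
      · rw [Polynomial.degree_X_pow, Polynomial.degree_eq_natDegree hRm.ne_zero, hRd]
      · rw [hRm.leadingCoeff]
        exact Polynomial.leadingCoeff_X_pow _
    rw [Polynomial.degree_X_pow] at h1
    rcases eq_or_ne (Polynomial.X ^ (n + 1) - R) 0 with h0 | h0
    · rw [h0]
      simp
    · have := (Polynomial.natDegree_lt_iff_degree_lt h0).2 h1
      omega
  let p : Fin (n + 1) → Polynomial ℂ := fun k =>
    if (k : ℕ) + 1 < n + 1 then Polynomial.X ^ (k : ℕ) else Polynomial.X ^ (n + 1) - R
  have hp : ∀ k, (p k).natDegree ≤ k := by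
    intro k
    by_cases h : (k : ℕ) + 1 < n + 1
    · simp only [p, if_pos h]
      exact Polynomial.natDegree_X_pow_le _
    · simp only [p, if_neg h]
      have : (k : ℕ) = n := by
        have := k.2
        omega
      rw [this]
      exact hd
  have he : (Matrix.of fun j k : Fin (n + 1) =>
      if (k : ℕ) + 1 < n + 1 then v j ^ (k : ℕ) else v j ^ (n + 1)) =
      Matrix.of (fun j k => ((p k).eval (v j))) := by
    ext j k
    rw [Matrix.of_apply, Matrix.of_apply]
    by_cases h : (k : ℕ) + 1 < n + 1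
    · simp only [p, if_pos h, Polynomial.eval_pow, Polynomial.eval_X]
    · have h0 : Polynomial.eval (v j) R = 0 := by
        rw [hR, Polynomial.eval_prod]
        refine Finset.prod_eq_zero (Finset.mem_univ j) ?_
        simp
      simp only [p, if_neg h, Polynomial.eval_sub, Polynomial.eval_pow, Polynomial.eval_X, h0,
        sub_zero]
  rw [he, Matrix.eval_matrixOfPolynomials_eq_vandermonde_mul_matrixOfPolynomials v p hp,
    Matrix.det_mul]
  congr 1
  rw [Matrix.det_of_isUpperTriangular]
  · rw [Fin.prod_univ_castSucc]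
    have h1 : ∀ k : Fin n, (Matrix.of fun (a b : Fin (n + 1)) => (p b).coeff (a : ℕ))
        (Fin.castSucc k) (Fin.castSucc k) = 1 := by
      intro k
      rw [Matrix.of_apply]
      have h : ((Fin.castSucc k : Fin (n + 1)) : ℕ) + 1 < n + 1 := by
        have := k.2
        simp
      simp only [p, if_pos h, Polynomial.coeff_X_pow, if_true]
    have h2 : (Matrix.of fun (a b : Fin (n + 1)) => (p b).coeff (a : ℕ))
        (Fin.last n) (Fin.last n) = ∑ j, v j := by
      rw [Matrix.of_apply]
      have h : ¬ (((Fin.last n : Fin (n + 1)) : ℕ) + 1 < n + 1) := by simp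
      simp only [p, if_neg h]
      rw [Polynomial.coeff_sub, Polynomial.coeff_X_pow]
      have h3 := Polynomial.prod_X_sub_C_coeff_card_pred (Finset.univ : Finset (Fin (n + 1))) v
        (by simp)
      rw [Finset.card_univ, Fintype.card_fin] at h3
      have h4 : R.coeff ((Fin.last n : Fin (n + 1)) : ℕ) = -∑ j, v j := h3
      rw [h4]
      simp
    rw [h2, Finset.prod_congr rfl (fun k _ => h1 k)]
    simp
  · intro a b hab
    rw [Matrix.of_apply]
    exact Polynomial.coeff_eq_zero_of_natDegree_lt (lt_of_le_of_lt (hp b) hab)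

/-- The points. -/
noncomputable def PX {B : ℕ} (m i : ℕ) (x : Fin B → ℂ) : Fin B → Fin m → ℂ := fun t k =>
  if (k : ℕ) + 1 < i then x t ^ (k : ℕ) else x t ^ i

/-- The minor of a set. -/
noncomputable def Dm {B i m : ℕ} (him : i ≤ m) (T : Finset (Fin B)) :
    (Fin B → Fin m → ℂ) → ℂ :=
  if h : T.card = i then mn him (T.orderEmbOfFin h) else 0

/-- The indicator function. -/
def ind {B : ℕ} (T : Finset (Fin B)) : Fin B → ℕ := fun b => if b ∈ T then 1 else 0

theorem sum_emb {M : Type*} [AddCommMonoid M] {B i : ℕ} {T : Finset (Fin B)} (h : T.card = i)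
    (φ : Fin B → M) : ∑ t : Fin i, φ (T.orderEmbOfFin h t) = ∑ s ∈ T, φ s := by
  conv_rhs => rw [← Finset.image_orderEmbOfFin_univ T h]
  rw [Finset.sum_image]
  intro a _ b _ hab
  exact (T.orderEmbOfFin h).injective hab

theorem Dm_MQ {B i m : ℕ} (him : i ≤ m) {T : Finset (Fin B)} (h : T.card = i) :
    Dm him T ∈ MQ B m (ind T) := by
  unfold Dm
  rw [dif_pos h]
  have e : dg1 (T.orderEmbOfFin h) = ind T := by
    funext b
    unfold dg1 ind
    rw [sum_emb h (fun s => if s = b then 1 else 0), Finset.sum_ite_eq']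
  have h1 := mn_MQ him (T.orderEmbOfFin h : Fin i → Fin B)
  rwa [e] at h1

theorem Dm_wt {B i m : ℕ} (him : i ≤ m) {T : Finset (Fin B)} (h : T.card = i) :
    HWF B m (om m i) (Dm him T) := by
  unfold Dm
  rw [dif_pos h]
  exact mn_wt him _

theorem Dm_val {B i m : ℕ} (hi : 1 ≤ i) (him : i ≤ m) {T : Finset (Fin B)} (h : T.card = i)
    {x : Fin B → ℂ} (hx : Function.Injective x) :
    Dm him T (PX m i x) ≠ 0 ↔ ∑ t ∈ T, x t ≠ 0 := by
  have e : Dm him T (PX m i x) = (Matrix.vandermonde (fun j => x (T.orderEmbOfFin h j))).det *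
      ∑ j, x (T.orderEmbOfFin h j) := by
    unfold Dm
    rw [dif_pos h, ← det_gap hi]
    rfl
  have hV : (Matrix.vandermonde (fun j => x (T.orderEmbOfFin h j))).det ≠ 0 := by
    rw [Matrix.det_vandermonde_ne_zero_iff]
    exact hx.comp (T.orderEmbOfFin h).injective
  rw [e, sum_emb h x]
  constructor
  · intro h1 h2
    exact h1 (by rw [h2, mul_zero])
  · intro h1
    exact mul_ne_zero hV h1

theorem prod_MQ {B i m : ℕ} (him : i ≤ m) (E : Finset (Finset (Fin B)))
    (hE : ∀ T ∈ E, T.card = i) : ∏ T ∈ E, Dm him T ∈ MQ B m (∑ T ∈ E, ind T) := by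
  classical
  induction E using Finset.induction_on with
  | empty =>
    rw [Finset.prod_empty, Finset.sum_empty]
    exact MQ_one
  | insert T E hT ih =>
    rw [Finset.prod_insert hT, Finset.sum_insert hT]
    exact MQ_mul (Dm_MQ him (hE T (Finset.mem_insert_self _ _)))
      (ih fun S hS => hE S (Finset.mem_insert_of_mem hS))

theorem prod_wt {B i m : ℕ} (him : i ≤ m) (E : Finset (Finset (Fin B)))
    (hE : ∀ T ∈ E, T.card = i) : HWF B m (E.card • om m i) (∏ T ∈ E, Dm him T) := by
  classical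
  induction E using Finset.induction_on with
  | empty =>
    rw [Finset.prod_empty, Finset.card_empty, zero_smul]
    exact HWF_one
  | insert T E hT ih =>
    rw [Finset.prod_insert hT, Finset.card_insert_of_notMem hT, add_smul, one_smul, add_comm]
    exact HWF_mul (Dm_wt him (hE T (Finset.mem_insert_self _ _)))
      (ih fun S hS => hE S (Finset.mem_insert_of_mem hS))

theorem count_mem {B i : ℕ} (hi : 1 ≤ i) (b : Fin B) :
    (∑ T ∈ (Finset.powersetCard i (Finset.univ : Finset (Fin B))), ind T) b =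
      (B - 1).choose (i - 1) := by
  classical
  rw [Finset.sum_apply]
  have h1 : ∑ T ∈ Finset.powersetCard i (Finset.univ : Finset (Fin B)), ind T b =
      ((Finset.powersetCard i (Finset.univ : Finset (Fin B))).filter (fun T => b ∈ T)).card := by
    rw [Finset.card_filter]
    rfl
  have h2 : ((Finset.powersetCard i (Finset.univ : Finset (Fin B))).filter
      (fun T => b ∈ T)).card = (Finset.powersetCard (i - 1) (Finset.univ.erase b)).card := by
    refine Finset.card_nbij' (fun T => T.erase b) (fun T => insert b T) ?_ ?_ ?_ ?_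
    · intro T hT
      have hT1 := Finset.mem_filter.1 hT
      have hT2 := (Finset.mem_powersetCard.1 hT1.1).2
      rw [Finset.mem_coe, Finset.mem_powersetCard]
      refine ⟨Finset.erase_subset_erase _ (Finset.subset_univ _), ?_⟩
      rw [Finset.card_erase_of_mem hT1.2, hT2]
    · intro T hT
      have hT1 := Finset.mem_powersetCard.1 hT
      rw [Finset.mem_coe, Finset.mem_filter, Finset.mem_powersetCard]
      have hb : b ∉ T := fun h => by
        have := hT1.1 h
        simp at this
      refine ⟨⟨Finset.subset_univ _, ?_⟩, Finset.mem_insert_self _ _⟩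
      rw [Finset.card_insert_of_notMem hb, hT1.2]
      omega
    · intro T hT
      have hT1 := Finset.mem_filter.1 hT
      exact Finset.insert_erase hT1.2
    · intro T hT
      have hT1 := Finset.mem_powersetCard.1 hT
      have hb : b ∉ T := fun h => by
        have := hT1.1 h
        simp at this
      exact Finset.erase_insert hb
  rw [h1, h2, Finset.card_powersetCard, Finset.card_erase_of_mem (Finset.mem_univ _),
    Finset.card_univ, Fintype.card_fin]

/-- The product of all minors except `S`, `S'`, times the minors `U`, `U'`. -/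
noncomputable def AA {B i m : ℕ} (him : i ≤ m) (S S' U U' : Finset (Fin B)) :
    (Fin B → Fin m → ℂ) → ℂ :=
  (∏ T ∈ ((Finset.powersetCard i (Finset.univ : Finset (Fin B))).erase S).erase S', Dm him T) *
    Dm him U * Dm him U'

theorem memE {B i : ℕ} {S S' T : Finset (Fin B)}
    (h : T ∈ ((Finset.powersetCard i (Finset.univ : Finset (Fin B))).erase S).erase S') :
    T.card = i ∧ T ≠ S ∧ T ≠ S' := by
  rw [Finset.mem_erase, Finset.mem_erase, Finset.mem_powersetCard] at h
  exact ⟨h.2.2.2, h.2.1, h.1⟩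

theorem AA_MP {B i m : ℕ} (hi : 1 ≤ i) (him : i ≤ m) {S S' U U' : Finset (Fin B)}
    (hS : S.card = i) (hS' : S'.card = i) (hne : S ≠ S') (hU : U.card = i) (hU' : U'.card = i)
    (hind : ind U + ind U' = ind S + ind S') :
    AA him S S' U U' ∈ MP B m ((B - 1).choose (i - 1)) := by
  have h1 := MQ_mul (MQ_mul (prod_MQ him
    (((Finset.powersetCard i (Finset.univ : Finset (Fin B))).erase S).erase S')
    fun T hT => (memE hT).1) (Dm_MQ him hU)) (Dm_MQ him hU')
  have hS1 : S ∈ Finset.powersetCard i (Finset.univ : Finset (Fin B)) :=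
    Finset.mem_powersetCard.2 ⟨Finset.subset_univ _, hS⟩
  have hS2 : S' ∈ (Finset.powersetCard i (Finset.univ : Finset (Fin B))).erase S :=
    Finset.mem_erase.2 ⟨hne.symm, Finset.mem_powersetCard.2 ⟨Finset.subset_univ _, hS'⟩⟩
  have e : ∑ T ∈ ((Finset.powersetCard i (Finset.univ : Finset (Fin B))).erase S).erase S', ind T +
      ind U + ind U' = fun _ => (B - 1).choose (i - 1) := by
    rw [add_assoc, hind, add_comm (ind S), ← add_assoc, Finset.sum_erase_add _ _ hS2,
      Finset.sum_erase_add _ _ hS1]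
    funext b
    exact count_mem hi b
  rw [e, MQ_const] at h1
  exact h1

theorem AA_wt {B i m : ℕ} (him : i ≤ m) {S S' U U' : Finset (Fin B)}
    (hS : S.card = i) (hS' : S'.card = i) (hne : S ≠ S') (hU : U.card = i) (hU' : U'.card = i) :
    HWF B m (B.choose i • om m i) (AA him S S' U U') := by
  have h1 := HWF_mul (HWF_mul (prod_wt him
    (((Finset.powersetCard i (Finset.univ : Finset (Fin B))).erase S).erase S')
    fun T hT => (memE hT).1) (Dm_wt him hU)) (Dm_wt him hU')
  have hS1 : S ∈ Finset.powersetCard i (Finset.univ : Finset (Fin B)) :=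
    Finset.mem_powersetCard.2 ⟨Finset.subset_univ _, hS⟩
  have hS2 : S' ∈ (Finset.powersetCard i (Finset.univ : Finset (Fin B))).erase S :=
    Finset.mem_erase.2 ⟨hne.symm, Finset.mem_powersetCard.2 ⟨Finset.subset_univ _, hS'⟩⟩
  have e : (((Finset.powersetCard i (Finset.univ : Finset (Fin B))).erase S).erase S').card • om m i
      + om m i + om m i = B.choose i • om m i := by
    have h2 := Finset.card_erase_add_one hS2
    have h3 := Finset.card_erase_add_one hS1
    have h4 : (Finset.powersetCard i (Finset.univ : Finset (Fin B))).card = B.choose i := by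
      rw [Finset.card_powersetCard, Finset.card_univ, Fintype.card_fin]
    rw [← h4, ← h3, ← h2]
    simp only [add_smul, one_smul]
  rw [e] at h1
  exact h1

/-- The swap. -/
theorem swap {B i : ℕ} (hi : 2 ≤ i) {S S' : Finset (Fin B)} (hS : S.card = i)
    (hS' : S'.card = i) (hd : Disjoint S S') : ∃ U U' : Finset (Fin B), U.card = i ∧ U'.card = i ∧
      ind U + ind U' = ind S + ind S' ∧ U ≠ S ∧ U' ≠ S := by
  classical
  obtain ⟨a, ha⟩ : S.Nonempty := Finset.card_pos.1 (by omega)
  obtain ⟨b, hb⟩ : S'.Nonempty := Finset.card_pos.1 (by omega)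
  have hab : a ≠ b := fun h => Finset.disjoint_left.1 hd ha (h ▸ hb)
  have hbS : b ∉ S := fun h => Finset.disjoint_left.1 hd h hb
  have haS : a ∉ S' := Finset.disjoint_left.1 hd ha
  have hb1 : b ∉ S.erase a := fun h => hbS (Finset.mem_of_mem_erase h)
  have ha1 : a ∉ S'.erase b := fun h => haS (Finset.mem_of_mem_erase h)
  refine ⟨insert b (S.erase a), insert a (S'.erase b), ?_, ?_, ?_, ?_, ?_⟩
  · rw [Finset.card_insert_of_notMem hb1, Finset.card_erase_of_mem ha]
    omega
  · rw [Finset.card_insert_of_notMem ha1, Finset.card_erase_of_mem hb]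
    omega
  · funext c
    simp only [Pi.add_apply, ind, Finset.mem_insert, Finset.mem_erase]
    by_cases h1 : c = a
    · subst h1
      simp [hab, ha, haS]
    · by_cases h2 : c = b
      · subst h2
        simp [h1, hb, hbS]
      · simp [h1, h2]
  · intro h
    exact hbS (h ▸ Finset.mem_insert_self _ _)
  · intro h
    obtain ⟨c, hc⟩ : (S'.erase b).Nonempty := Finset.card_pos.1 (by
      rw [Finset.card_erase_of_mem hb]
      omega)
    have h1 : c ∈ S := h ▸ Finset.mem_insert_of_mem hc
    exact Finset.disjoint_left.1 hd h1 (Finset.mem_of_mem_erase hc)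

/-- A disjoint set different from a given one. -/
theorem disj {B i : ℕ} (hB : 2 * i + 1 ≤ B) {S : Finset (Fin B)} (hS : S.card = i)
    (hi : 1 ≤ i) (T1 : Finset (Fin B)) :
    ∃ S' : Finset (Fin B), S'.card = i ∧ Disjoint S S' ∧ S' ≠ T1 := by
  classical
  have hc : i + 1 ≤ Sᶜ.card := by
    rw [Finset.card_compl, Fintype.card_fin, hS]
    omega
  obtain ⟨W, hW, hWc⟩ := Finset.exists_subset_card_eq hc
  obtain ⟨u, hu, v, hv, huv⟩ := Finset.one_lt_card.1 (by omega : 1 < W.card)
  have key : ∀ w ∈ W, (W.erase w).card = i ∧ Disjoint S (W.erase w) := by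
    intro w hw
    refine ⟨?_, ?_⟩
    · rw [Finset.card_erase_of_mem hw]
      omega
    · rw [Finset.disjoint_left]
      intro c hc1 hc2
      exact (Finset.mem_compl.1 (hW (Finset.mem_of_mem_erase hc2))) hc1
  by_cases h : W.erase u = T1
  · refine ⟨W.erase v, (key v hv).1, (key v hv).2, fun h' => ?_⟩
    have h1 : W.erase u = W.erase v := h.trans h'.symm
    have h2 : v ∈ W.erase u := Finset.mem_erase.2 ⟨huv.symm, hv⟩
    rw [h1] at h2
    exact (Finset.mem_erase.1 h2).1 rfl
  · exact ⟨W.erase u, (key u hu).1, (key u hu).2, h⟩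

end Hyp

open Hyp

/-- W2: hypergraphs. -/
theorem hyper {B m i : ℕ} (hi : 2 ≤ i) (him : i ≤ m) (hB : 2 * i + 1 ≤ B)
    (σ : Equiv.Perm (Fin B)) (hσ : σ ≠ 1) :
    ∃ A A' : (Fin B → Fin m → ℂ) → ℂ, A ∈ MP B m ((B - 1).choose (i - 1)) ∧
      A' ∈ MP B m ((B - 1).choose (i - 1)) ∧ HWF B m (B.choose i • om m i) A ∧
      HWF B m (B.choose i • om m i) A' ∧
      ∃ P, A P * A' (fun j => P (σ j)) ≠ A (fun j => P (σ j)) * A' P := by
  classical
  obtain ⟨y, hy⟩ : ∃ y, σ y ≠ y := by
    by_contra hc
    push Not at hc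
    exact hσ (Equiv.ext hc)
  obtain ⟨T1, h1a, h1b, h1c⟩ := Finset.exists_subsuperset_card_eq
    (s := {σ y}) (t := Finset.univ.erase y) (n := i)
    (by
      rw [Finset.singleton_subset_iff]
      exact Finset.mem_erase.2 ⟨hy, Finset.mem_univ _⟩)
    (by
      rw [Finset.card_singleton]
      omega)
    (by
      rw [Finset.card_erase_of_mem (Finset.mem_univ _), Finset.card_univ, Fintype.card_fin]
      omega)
  have hy1 : σ y ∈ T1 := h1a (Finset.mem_singleton_self _)
  have hy2 : y ∉ T1 := fun h => (Finset.mem_erase.1 (h1b h)).1 rfl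
  -- `T2 = σ⁻¹ T1`
  set T2 : Finset (Fin B) := T1.map σ.symm.toEmbedding with hT2
  have h2c : T2.card = i := by rw [hT2, Finset.card_map, h1c]
  have hmap : ∀ T : Finset (Fin B), T.map σ.toEmbedding = T1 ↔ T = T2 := by
    intro T
    constructor
    · intro h
      rw [hT2, ← h, Finset.map_map]
      ext c
      simp
    · intro h
      rw [h, hT2, Finset.map_map]
      ext c
      simp
  have h12 : T1 ≠ T2 := by
    intro h
    apply hy2
    rw [h, hT2, Finset.mem_map]
    exact ⟨σ y, hy1, by simp⟩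
  obtain ⟨S2, s2c, s2d, s2n⟩ := disj hB h2c (by omega) T1
  obtain ⟨S1, s1c, s1d, -⟩ := disj hB h1c (by omega) T1
  obtain ⟨U, U', uc, uc', ui, un, un'⟩ := swap hi h2c s2c s2d
  obtain ⟨V, V', vc, vc', vi, vn, vn'⟩ := swap hi h1c s1c s1d
  have n2 : T2 ≠ S2 := by
    intro h
    have h3 : (T2 : Finset (Fin B)).Nonempty := Finset.card_pos.1 (by omega)
    obtain ⟨c, hc⟩ := h3
    exact Finset.disjoint_left.1 s2d hc (h ▸ hc)
  have n1 : T1 ≠ S1 := by
    intro h
    exact Finset.disjoint_left.1 s1d hy1 (h ▸ hy1)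
  refine ⟨AA him T2 S2 U U', AA him T1 S1 V V', AA_MP (by omega) him h2c s2c n2 uc uc' ui,
    AA_MP (by omega) him h1c s1c n1 vc vc' vi, AA_wt him h2c s2c n2 uc uc',
    AA_wt him h1c s1c n1 vc vc', ?_⟩
  -- the points
  set s : ℂ := (∑ t ∈ T1, (2 : ℂ) ^ (t : ℕ)) / i with hs
  have hi0 : (i : ℂ) ≠ 0 := by
    have : i ≠ 0 := by omega
    exact_mod_cast this
  set x : Fin B → ℂ := fun t => (2 : ℂ) ^ (t : ℕ) - s with hx
  have hxi : Function.Injective x := by
    intro a b hab
    have h3 : (2 : ℂ) ^ (a : ℕ) = (2 : ℂ) ^ (b : ℕ) := sub_left_injective hab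
    have h4 : ({a} : Finset (Fin B)) = {b} := two_inj (by simpa using h3)
    exact Finset.singleton_injective h4
  have hsum : ∀ T : Finset (Fin B), T.card = i →
      (∑ t ∈ T, x t ≠ 0 ↔ T ≠ T1) := by
    intro T hT
    have h3 : ∑ t ∈ T, x t = ∑ t ∈ T, (2 : ℂ) ^ (t : ℕ) - ∑ t ∈ T1, (2 : ℂ) ^ (t : ℕ) := by
      simp only [hx]
      rw [Finset.sum_sub_distrib, Finset.sum_const, hT, nsmul_eq_mul, hs, mul_div_cancel₀ _ hi0]
    rw [h3, not_iff_not, sub_eq_zero]
    exact ⟨fun h => two_inj h, fun h => by rw [h]⟩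
  have val1 : ∀ T : Finset (Fin B), T.card = i → (Dm him T (PX m i x) ≠ 0 ↔ T ≠ T1) := by
    intro T hT
    rw [Dm_val (by omega) him hT hxi, hsum T hT]
  have val2 : ∀ T : Finset (Fin B), T.card = i →
      (Dm him T (fun j => PX m i x (σ j)) ≠ 0 ↔ T ≠ T2) := by
    intro T hT
    have h3 : (fun j => PX m i x (σ j)) = PX m i (fun t => x (σ t)) := rfl
    have hxi' : Function.Injective (fun t => x (σ t)) := hxi.comp σ.injective
    rw [h3, Dm_val (by omega) him hT hxi']
    have h4 : ∑ t ∈ T, x (σ t) = ∑ t ∈ T.map σ.toEmbedding, x t := by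
      rw [Finset.sum_map]
      rfl
    rw [h4, hsum _ (by rw [Finset.card_map, hT]), not_iff_not]
    exact hmap T
  refine ⟨PX m i x, ?_⟩
  have z1 : AA him T2 S2 U U' (PX m i x) = 0 := by
    unfold AA
    rw [Pi.mul_apply, Pi.mul_apply, Finset.prod_apply]
    have h3 : Dm him T1 (PX m i x) = 0 := by
      by_contra h
      exact (val1 T1 h1c).1 h rfl
    have h4 : T1 ∈ ((Finset.powersetCard i (Finset.univ : Finset (Fin B))).erase T2).erase S2 := by
      rw [Finset.mem_erase, Finset.mem_erase, Finset.mem_powersetCard]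
      exact ⟨s2n.symm, h12, Finset.subset_univ _, h1c⟩
    rw [Finset.prod_eq_zero h4 h3]
    simp
  have z2 : AA him T2 S2 U U' (fun j => PX m i x (σ j)) ≠ 0 := by
    unfold AA
    rw [Pi.mul_apply, Pi.mul_apply, Finset.prod_apply]
    refine mul_ne_zero (mul_ne_zero (Finset.prod_ne_zero_iff.2 fun T hT => ?_) ?_) ?_
    · exact (val2 T (memE hT).1).2 (memE hT).2.1
    · exact (val2 U uc).2 un
    · exact (val2 U' uc').2 un'
  have z3 : AA him T1 S1 V V' (PX m i x) ≠ 0 := by
    unfold AA
    rw [Pi.mul_apply, Pi.mul_apply, Finset.prod_apply]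
    refine mul_ne_zero (mul_ne_zero (Finset.prod_ne_zero_iff.2 fun T hT => ?_) ?_) ?_
    · exact (val1 T (memE hT).1).2 (memE hT).2.1
    · exact (val1 V vc).2 vn
    · exact (val1 V' vc').2 vn'
  rw [z1, zero_mul]
  exact (mul_ne_zero z2 z3).symm

end Vale.Agent.P181.FR
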