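import Mathlib

set_option autoImplicit false

namespace Vale.Agent.P181.FR

/-- R13: the numerical inequality. -/
theorem numer {m p w a b N : ℕ} (hm : 3 ≤ m) (hp : 2 ≤ p) (hN : N = (2 * m + 1) * (2 * p - 1))
    (h1 : (N + 1) * w ^ p ≤ a) (h2 : a ≤ w ^ (2 * p - 1)) (hb : b + 1 ≤ a ^ 2) :
    (b + 1) ^ (m * a) * (N * w ^ (2 * p - 1) * a + 1) ^ (m * m + m) ≤ w ^ (N * w ^ (2 * p - 1)) := by
  obtain ⟨r, rfl⟩ : ∃ r, p = r + 2 := ⟨p - 2, by omega⟩
  have hq : 2 * (r + 2) - 1 = 2 * r + 3 := by omega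
  rw [hq] at hN h2 ⊢
  rcases Nat.eq_zero_or_pos w with hw0 | hw
  · subst hw0
    rw [zero_pow (by omega)] at h2
    have ha : a = 0 := by omega
    subst ha
    simp at hb
  -- `N + 1 ≤ w ^ (r + 1)`
  have hN1 : N + 1 ≤ w ^ (r + 1) := by
    have h3 : (N + 1) * w ^ (r + 2) ≤ w ^ (r + 1) * w ^ (r + 2) := by
      refine (h1.trans h2).trans (le_of_eq ?_)
      rw [← pow_add]
      congr 1
      omega
    exact Nat.le_of_mul_le_mul_right h3 (pow_pos hw _)
  have hNbig : 6 * m + 3 ≤ N := by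
    rw [hN]
    nlinarith
  have ha1 : 1 ≤ a := by
    rcases Nat.eq_zero_or_pos a with h | h
    · subst h
      simp at hb
    · exact h
  have hwq : 1 ≤ w ^ (2 * r + 3) := Nat.one_le_pow _ _ hw
  -- first factor
  have hF1 : (b + 1) ^ (m * a) ≤ w ^ ((2 * r + 3) * (2 * m * w ^ (2 * r + 3))) := by
    calc (b + 1) ^ (m * a) ≤ (a ^ 2) ^ (m * a) := Nat.pow_le_pow_left hb _
      _ = a ^ (2 * (m * a)) := by rw [← pow_mul]
      _ ≤ (w ^ (2 * r + 3)) ^ (2 * (m * a)) := Nat.pow_le_pow_left h2 _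
      _ ≤ (w ^ (2 * r + 3)) ^ (2 * m * w ^ (2 * r + 3)) := by
          apply Nat.pow_le_pow_right hwq
          rw [mul_assoc]
          exact Nat.mul_le_mul_left 2 (Nat.mul_le_mul_left m h2)
      _ = w ^ ((2 * r + 3) * (2 * m * w ^ (2 * r + 3))) := by rw [← pow_mul]
  -- second factor
  have hF2 : N * w ^ (2 * r + 3) * a + 1 ≤ w ^ (3 * (2 * r + 3)) := by
    calc N * w ^ (2 * r + 3) * a + 1 ≤ N * w ^ (2 * r + 3) * w ^ (2 * r + 3)
          + w ^ (2 * r + 3) * w ^ (2 * r + 3) := by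
            apply Nat.add_le_add
            · exact Nat.mul_le_mul_left _ h2
            · exact Nat.one_le_iff_ne_zero.2 (Nat.mul_ne_zero (by omega) (by omega))
      _ = (N + 1) * (w ^ (2 * r + 3) * w ^ (2 * r + 3)) := by ring
      _ ≤ w ^ (r + 1) * (w ^ (2 * r + 3) * w ^ (2 * r + 3)) := Nat.mul_le_mul_right _ hN1
      _ = w ^ (r + 1 + (2 * r + 3 + (2 * r + 3))) := by rw [← pow_add, ← pow_add]
      _ ≤ w ^ (3 * (2 * r + 3)) := Nat.pow_le_pow_right hw (by omega)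
  have hF3 : (N * w ^ (2 * r + 3) * a + 1) ^ (m * m + m) ≤
      w ^ (3 * (2 * r + 3) * (m * m + m)) := by
    rw [pow_mul]
    exact Nat.pow_le_pow_left hF2 _
  -- the exponent
  have hbig : 3 * (m * m + m) ≤ w ^ (2 * r + 3) := by
    have e1 : w ^ (2 * r + 3) = w ^ (r + 1) * (w ^ (r + 1) * w) := by
      rw [← pow_succ, ← pow_add]
      congr 1
      omega
    rw [e1]
    have e2 : 6 * m + 4 ≤ w ^ (r + 1) := by omega
    have e3 : 6 * m + 4 ≤ w ^ (r + 1) * w := e2.trans (Nat.le_mul_of_pos_right _ hw)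
    calc 3 * (m * m + m) ≤ (6 * m + 4) * (6 * m + 4) := by nlinarith
      _ ≤ w ^ (r + 1) * (w ^ (r + 1) * w) := Nat.mul_le_mul e2 e3
  calc (b + 1) ^ (m * a) * (N * w ^ (2 * r + 3) * a + 1) ^ (m * m + m)
      ≤ w ^ ((2 * r + 3) * (2 * m * w ^ (2 * r + 3))) * w ^ (3 * (2 * r + 3) * (m * m + m)) :=
        Nat.mul_le_mul hF1 hF3
    _ = w ^ ((2 * r + 3) * (2 * m * w ^ (2 * r + 3)) + 3 * (2 * r + 3) * (m * m + m)) := by
        rw [← pow_add]
    _ ≤ w ^ (N * w ^ (2 * r + 3)) := by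
        apply Nat.pow_le_pow_right hw
        rw [hN]
        generalize w ^ (2 * r + 3) = X at hbig
        have := Nat.mul_le_mul_left (2 * r + 3) hbig
        nlinarith

end Vale.Agent.P181.FR
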