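import Mathlib

set_option autoImplicit false

namespace Vale.Agent.P181.FR

/-- R6: an eigenspace of large dimension. -/
theorem pig {M : Type*} [AddCommGroup M] [Module ℂ M] [Module.Finite ℂ M] (E : Submodule ℂ M)
    (T : M →ₗ[ℂ] M) (hT : ∀ x ∈ E, T x ∈ E) {N : ℕ} (hN : 0 < N) (c : ℕ → ℂ)
    (h : ∀ x ∈ E, Polynomial.aeval T (∏ k ∈ Finset.range N, (Polynomial.X - Polynomial.C (c k))) x = 0) :
    ∃ k < N, Module.finrank ℂ E ≤ N * Module.finrank ℂ ↥(E ⊓ LinearMap.ker (T - c k • LinearMap.id)) := by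
  set P : ℕ → (M →ₗ[ℂ] M) := fun j =>
    Polynomial.aeval T (∏ k ∈ Finset.range j, (Polynomial.X - Polynomial.C (c k))) with hP
  have hfac : ∀ k, Polynomial.aeval T (Polynomial.X - Polynomial.C (c k)) =
      T - c k • LinearMap.id := by
    intro k
    rw [map_sub, Polynomial.aeval_X, Polynomial.aeval_C]
    rfl
  have hP0 : P 0 = LinearMap.id := by
    simp only [hP, Finset.range_zero, Finset.prod_empty, map_one]
    rfl
  have hPs : ∀ j, P (j + 1) = (T - c j • LinearMap.id) ∘ₗ P j := by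
    intro j
    simp only [hP]
    rw [Finset.prod_range_succ, mul_comm, map_mul, hfac]
    rfl
  have hPE : ∀ j, ∀ x ∈ E, P j x ∈ E := by
    intro j
    induction j with
    | zero =>
      intro x hx
      rw [hP0]
      exact hx
    | succ j ih =>
      intro x hx
      rw [hPs]
      simp only [LinearMap.comp_apply, LinearMap.sub_apply, LinearMap.smul_apply,
        LinearMap.id_apply]
      exact E.sub_mem (hT _ (ih x hx)) (E.smul_mem _ (ih x hx))
  have hstep : ∀ j, Module.finrank ℂ ↥(E ⊓ LinearMap.ker (P (j + 1))) ≤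
      Module.finrank ℂ ↥(E ⊓ LinearMap.ker (T - c j • LinearMap.id)) +
      Module.finrank ℂ ↥(E ⊓ LinearMap.ker (P j)) := by
    intro j
    set F : Submodule ℂ M := E ⊓ LinearMap.ker (P (j + 1)) with hF
    set f : ↥F →ₗ[ℂ] M := (P j).domRestrict F with hf
    have h1 := LinearMap.finrank_range_add_finrank_ker f
    have h2 : LinearMap.range f ≤ E ⊓ LinearMap.ker (T - c j • LinearMap.id) := by
      rintro _ ⟨x, rfl⟩
      have hx : x.1 ∈ E ∧ x.1 ∈ LinearMap.ker (P (j + 1)) := x.2
      refine ⟨hPE j _ hx.1, ?_⟩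
      have h3 := hx.2
      rw [LinearMap.mem_ker, hPs] at h3
      exact h3
    have h3 : Module.finrank ℂ ↥(LinearMap.ker f) ≤
        Module.finrank ℂ ↥(E ⊓ LinearMap.ker (P j)) := by
      rw [← Submodule.finrank_map_subtype_eq F (LinearMap.ker f)]
      apply Submodule.finrank_mono
      rintro _ ⟨x, hx, rfl⟩
      have hx' : x.1 ∈ E ∧ x.1 ∈ LinearMap.ker (P (j + 1)) := x.2
      exact ⟨hx'.1, hx⟩
    have h4 := Submodule.finrank_mono h2
    omega
  have hsum : ∀ j, Module.finrank ℂ ↥(E ⊓ LinearMap.ker (P j)) ≤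
      ∑ k ∈ Finset.range j, Module.finrank ℂ ↥(E ⊓ LinearMap.ker (T - c k • LinearMap.id)) := by
    intro j
    induction j with
    | zero =>
      rw [hP0, LinearMap.ker_id, inf_bot_eq]
      simp
    | succ j ih =>
      rw [Finset.sum_range_succ]
      have := hstep j
      omega
  have hE : E ⊓ LinearMap.ker (P N) = E := by
    rw [inf_eq_left]
    intro x hx
    exact h x hx
  have htot := hsum N
  rw [hE] at htot
  obtain ⟨k, hk, hmax⟩ := Finset.exists_max_image (Finset.range N)
    (fun k => Module.finrank ℂ ↥(E ⊓ LinearMap.ker (T - c k • LinearMap.id)))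
    ⟨0, Finset.mem_range.2 hN⟩
  refine ⟨k, Finset.mem_range.1 hk, htot.trans ?_⟩
  refine (Finset.sum_le_card_nsmul _ _ _ hmax).trans ?_
  simp

end Vale.Agent.P181.FR
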