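import Vale.Agent.P181.R2.H959.VDefs
import Vale.Agent.P181.R2.H379.Hyper

/-! P181.AllFewRows, row V1. -/

set_option autoImplicit false

open scoped TensorProduct

namespace Vale.Agent.P181.FR

open Vale.Agent.P181 Vale.Agent.P181.H280 Vale.Agent.P181.H54 MvPolynomial Cyc Hyp

namespace V1H379

theorem mnr_eq {B m i : ℕ} (him : i ≤ m) (S : Finset (Fin B)) :
    (mnr him S : (Fin B → Fin m → ℂ) → ℂ) = Dm him S := by
  funext p
  unfold mnr Dm
  split_ifs with h
  · rfl
  · rfl

theorem YS_eq {B m i : ℕ} (him : i ≤ m) (S : Finset (Fin B)) :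
    (YS him S : (Fin B → Fin m → ℂ) → ℂ) = (Dm him S * Dm him Sᶜ) * (Dm him S * Dm him Sᶜ) := by
  funext p
  unfold YS
  rw [mnr_eq, mnr_eq, pow_two]
  rfl

theorem ind_compl {B : ℕ} (S : Finset (Fin B)) : ind S + ind Sᶜ = fun _ => 1 := by
  classical
  funext b
  simp only [Pi.add_apply, ind, Finset.mem_compl]
  by_cases h : b ∈ S
  · simp [h]
  · simp [h]

theorem mnr_perm {B m i : ℕ} (him : i ≤ m) (S : Finset (Fin B)) (σ : Equiv.Perm (Fin B))
    (p : Fin B → Fin m → ℂ) : mnr him S (fun j => p (σ j)) ^ 2 =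
      mnr him (S.map σ.toEmbedding) p ^ 2 := by
  classical
  unfold mnr
  by_cases h : S.card = i
  · have h' : (S.map σ.toEmbedding).card = i := by rw [Finset.card_map, h]
    rw [dif_pos h, dif_pos h']
    have hmem : ∀ j : Fin i, σ (S.orderEmbOfFin h j) ∈ S.map σ.toEmbedding := fun j =>
      Finset.mem_map.2 ⟨S.orderEmbOfFin h j, Finset.orderEmbOfFin_mem S h j, rfl⟩
    have hex : ∀ j : Fin i, ∃ k : Fin i, (S.map σ.toEmbedding).orderEmbOfFin h' k =
        σ (S.orderEmbOfFin h j) := by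
      intro j
      have h2 := hmem j
      rw [← Finset.image_orderEmbOfFin_univ (S.map σ.toEmbedding) h'] at h2
      obtain ⟨k, _, hk⟩ := Finset.mem_image.1 h2
      exact ⟨k, hk⟩
    choose π hπ using hex
    have hinj : Function.Injective π := by
      intro a b hab
      have h3 : σ (S.orderEmbOfFin h a) = σ (S.orderEmbOfFin h b) := by
        rw [← hπ a, ← hπ b, hab]
      exact (S.orderEmbOfFin h).injective (σ.injective h3)
    let τ : Equiv.Perm (Fin i) := Equiv.ofBijective π (Finite.injective_iff_bijective.1 hinj)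
    have e : (Matrix.of fun j k : Fin i => p (σ (S.orderEmbOfFin h j)) (Fin.castLE him k)) =
        (Matrix.of fun j k : Fin i => p ((S.map σ.toEmbedding).orderEmbOfFin h' j)
          (Fin.castLE him k)).submatrix τ id := by
      ext j k
      rw [Matrix.submatrix_apply, Matrix.of_apply, Matrix.of_apply]
      have : (S.map σ.toEmbedding).orderEmbOfFin h' (τ j) = σ (S.orderEmbOfFin h j) := hπ j
      rw [this]
      rfl
    have h4 := Matrix.det_permute τ (Matrix.of fun j k : Fin i =>
      p ((S.map σ.toEmbedding).orderEmbOfFin h' j) (Fin.castLE him k))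
    rw [e, h4, mul_pow]
    have h5 : (((Equiv.Perm.sign τ : ℤˣ) : ℤ) : ℂ) ^ 2 = 1 := by
      rcases Int.units_eq_one_or (Equiv.Perm.sign τ) with h6 | h6
      · rw [h6]; simp
      · rw [h6]; simp
    rw [h5, one_mul]
  · have h' : ¬ (S.map σ.toEmbedding).card = i := by rwa [Finset.card_map]
    rw [dif_neg h, dif_neg h']

end V1H379

open V1H379

theorem YS_MP {m i : ℕ} (hi : 1 ≤ i) (him : i ≤ m) {S : Finset (Fin (2 * i - 1 + 1))}
    (hS : S ∈ sub i) : YS him S ∈ MP (2 * i - 1 + 1) m 2 := by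
  have h1 : S.card = i := (Finset.mem_powersetCard.1 hS).2
  have h2 : Sᶜ.card = i := by
    rw [Finset.card_compl, Fintype.card_fin, h1]
    omega
  have h3 := MQ_mul (MQ_mul (Dm_MQ him h1) (Dm_MQ him h2)) (MQ_mul (Dm_MQ him h1) (Dm_MQ him h2))
  rw [ind_compl] at h3
  rw [YS_eq]
  exact h3

theorem YS_HWF {m i : ℕ} (hi : 1 ≤ i) (him : i ≤ m) {S : Finset (Fin (2 * i - 1 + 1))}
    (hS : S ∈ sub i) : HWF (2 * i - 1 + 1) m (4 • om m i) (YS him S) := by
  have h1 : S.card = i := (Finset.mem_powersetCard.1 hS).2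
  have h2 : Sᶜ.card = i := by
    rw [Finset.card_compl, Fintype.card_fin, h1]
    omega
  have h3 := HWF_mul (HWF_mul (Dm_wt him h1) (Dm_wt him h2))
    (HWF_mul (Dm_wt him h1) (Dm_wt him h2))
  have e : om m i + om m i + (om m i + om m i) = 4 • om m i := by
    funext k
    simp only [Pi.add_apply, Pi.smul_apply, smul_eq_mul]
    ring
  rw [e] at h3
  rw [YS_eq]
  exact h3

theorem YS_perm {B m i : ℕ} (him : i ≤ m) (S : Finset (Fin B)) (σ : Equiv.Perm (Fin B))
    (p : Fin B → Fin m → ℂ) : YS him S (fun j => p (σ j)) = YS him (S.map σ.toEmbedding) p := by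
  classical
  unfold YS
  have hc : (S.map σ.toEmbedding)ᶜ = Sᶜ.map σ.toEmbedding := by
    ext c
    simp only [Finset.mem_compl, Finset.mem_map, Equiv.coe_toEmbedding, not_exists, not_and]
    constructor
    · intro h
      exact ⟨σ.symm c, fun h2 => h _ h2 (by simp), by simp⟩
    · rintro ⟨a, ha, rfl⟩ b hb hab
      exact ha (σ.injective hab ▸ hb)
  rw [hc, mul_pow, mul_pow, mnr_perm, mnr_perm]

theorem YS_diag {B m i : ℕ} (him : i ≤ m) {S : Finset (Fin B)} {u v : Fin B} (hu : u ∈ S)
    (hv : v ∈ S) (huv : u ≠ v) {p : Fin B → Fin m → ℂ} (h : p u = p v) : YS him S p = 0 := by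
  classical
  have h0 : mnr him S p = 0 := by
    unfold mnr
    by_cases hc : S.card = i
    · rw [dif_pos hc]
      rw [← Finset.image_orderEmbOfFin_univ S hc] at hu hv
      obtain ⟨a, _, ha⟩ := Finset.mem_image.1 hu
      obtain ⟨b, _, hb⟩ := Finset.mem_image.1 hv
      have hab : a ≠ b := by
        rintro rfl
        exact huv (ha.symm.trans hb)
      refine Matrix.det_zero_of_row_eq hab ?_
      funext k
      rw [Matrix.of_apply, Matrix.of_apply, ha, hb, h]
    · rw [dif_neg hc]
  unfold YS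
  rw [h0]
  simp

end Vale.Agent.P181.FR
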